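import Mathlib
import Vale.Agent.P125.J27.Defs58

/-!
# P125 Poly, COL (helper85): triangle inequality and collapse of the four point sums.
-/

namespace Vale.Agent.P125.J27

open scoped BigOperators
open Vale.Agent.P125.Dich

theorem stCol_85 (hs : StSmall) : StCol := by
  intro S _ _ μ P hc hL n f k r r'
  obtain ⟨-, -, -, -, -, -, -, hF, hw, -⟩ := hs S μ P hc hL n f
  have hP : ∀ x y, 0 ≤ P x y := fun x y => by simpa using hL.pw_nonneg 1 x y
  have hrev1 : ∀ x y, μ x * P x y = μ y * P y x := fun x y => by simpa using hL.pw_rev 1 x y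
  have hw0 : ∀ a b, 0 ≤ w f a b k := fun a b => abs_nonneg _
  have hstat : ∀ t a, ∑ x, μ x * (P ^ t) x a = μ a := by
    intro t a
    calc ∑ x, μ x * (P ^ t) x a = ∑ x, μ a * (P ^ t) a x :=
          Finset.sum_congr rfl (fun x _ => hL.pw_rev t x a)
      _ = μ a := by rw [← Finset.mul_sum, hL.pw_sum, mul_one]
  have T1 : ∑ x, ∑ a, ∑ b, ∑ y, μ x * (P ^ r) x a * P a b * (P ^ r') b y *
      (w f a b k * |F f k y - F f k b|) = Qk μ P f r' k := by
    rw [Finset.sum_comm]
    have h : ∀ a, ∑ x, ∑ b, ∑ y, μ x * (P ^ r) x a * P a b * (P ^ r') b y *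
        (w f a b k * |F f k y - F f k b|)
        = (∑ x, μ x * (P ^ r) x a) * ∑ b, P a b * (w f a b k * Ak P f r' k b) := by
      intro a
      rw [Finset.sum_mul]
      apply Finset.sum_congr rfl; intro x _
      rw [Finset.mul_sum]
      apply Finset.sum_congr rfl; intro b _
      unfold Ak
      rw [Finset.mul_sum, Finset.mul_sum, Finset.mul_sum]
      apply Finset.sum_congr rfl; intro y _
      ring
    simp_rw [h, hstat]
    unfold Qk av om
    simp_rw [Finset.sum_mul, Finset.mul_sum]
    rw [Finset.sum_comm]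
    apply Finset.sum_congr rfl; intro b _
    apply Finset.sum_congr rfl; intro a _
    rw [hw a b]
    calc μ a * (P a b * (w f b a k * Ak P f r' k b))
        = (μ a * P a b) * (w f b a k * Ak P f r' k b) := by ring
      _ = (μ b * P b a) * (w f b a k * Ak P f r' k b) := by rw [hrev1 a b]
      _ = _ := by ring
  have T2 : ∑ x, ∑ a, ∑ b, ∑ y, μ x * (P ^ r) x a * P a b * (P ^ r') b y *
      (w f a b k * ell f a b) = ∑ a, ∑ b, μ a * P a b * (w f a b k * ell f a b) := by
    rw [Finset.sum_comm]
    apply Finset.sum_congr rfl; intro a _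
    have h : ∑ x, ∑ b, ∑ y, μ x * (P ^ r) x a * P a b * (P ^ r') b y *
        (w f a b k * ell f a b)
        = (∑ x, μ x * (P ^ r) x a) * ∑ b, P a b * (w f a b k * ell f a b) * ∑ y, (P ^ r') b y := by
      rw [Finset.sum_mul]
      apply Finset.sum_congr rfl; intro x _
      rw [Finset.mul_sum]
      apply Finset.sum_congr rfl; intro b _
      rw [Finset.mul_sum, Finset.mul_sum]
      apply Finset.sum_congr rfl; intro y _
      ring
    rw [h, hstat, Finset.mul_sum]
    apply Finset.sum_congr rfl; intro b _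
    rw [hL.pw_sum]; ring
  have T3 : ∑ x, ∑ a, ∑ b, ∑ y, μ x * (P ^ r) x a * P a b * (P ^ r') b y *
      (w f a b k * |F f k a - F f k x|) = Qk μ P f r k := by
    rw [Finset.sum_comm]
    unfold Qk av
    apply Finset.sum_congr rfl; intro a _
    unfold Ak
    show _ = μ a * (om P f k a * ∑ y, (P ^ r) a y * |F f k y - F f k a|)
    rw [Finset.mul_sum, Finset.mul_sum]
    apply Finset.sum_congr rfl; intro x _
    have h : ∑ b, ∑ y, μ x * (P ^ r) x a * P a b * (P ^ r') b y *
        (w f a b k * |F f k a - F f k x|)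
        = μ x * (P ^ r) x a * |F f k a - F f k x| * ∑ b, P a b * w f a b k * ∑ y, (P ^ r') b y := by
      rw [Finset.mul_sum]
      apply Finset.sum_congr rfl; intro b _
      rw [Finset.mul_sum, Finset.mul_sum]
      apply Finset.sum_congr rfl; intro y _
      ring
    rw [h]
    simp_rw [hL.pw_sum, mul_one]
    rw [hL.pw_rev r x a, abs_sub_comm (F f k a) (F f k x)]
    unfold om
    ring
  rw [← T1, ← T2, ← T3]
  simp_rw [← Finset.sum_add_distrib]
  apply Finset.sum_le_sum; intro x _
  apply Finset.sum_le_sum; intro a _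
  apply Finset.sum_le_sum; intro b _
  apply Finset.sum_le_sum; intro y _
  have hc0 : 0 ≤ μ x * (P ^ r) x a * P a b * (P ^ r') b y :=
    mul_nonneg (mul_nonneg (mul_nonneg (hL.mu_nonneg x) (hL.pw_nonneg r x a)) (hP a b))
      (hL.pw_nonneg r' b y)
  have htri : |F f k y - F f k x| ≤ |F f k y - F f k b| + ell f a b + |F f k a - F f k x| := by
    have h1 : F f k y - F f k x = (F f k y - F f k b) + (F f k b - F f k a)
        + (F f k a - F f k x) := by ring
    rw [h1]
    have h2 := abs_add_three (F f k y - F f k b) (F f k b - F f k a) (F f k a - F f k x)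
    have h3 := hF k a b
    linarith
  have h4 := mul_le_mul_of_nonneg_left (mul_le_mul_of_nonneg_left htri (hw0 a b)) hc0
  calc _ ≤ _ := h4
    _ = _ := by ring

end Vale.Agent.P125.J27
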